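import Vale.Agent.P203.Final

/-!
# P203: the K(pi,1) conjecture for all Artin groups
-/

namespace Vale.Agent.Results.P203.A_full

open Vale.Agent.P203

theorem result {B : Type} [Finite B] {W : Type*} [Group W] {M : CoxeterMatrix B}
    (cs : CoxeterSystem M W) :
    PathConnectedSpace (Salvetti cs) ∧ ∀ x : Salvetti cs,
      Nonempty (FundamentalGroup (Salvetti cs) x ≃* Art M) ∧
        ∀ n, 2 ≤ n → Subsingleton (HomotopyGroup.Pi n (Salvetti cs) x) :=
  final cs

end Vale.Agent.Results.P203.A_full
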